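import Vale.Agent.P323.N.Core
import Vale.Agent.P323.Coded2
import Vale.Agent.P323.Dens

/-!
# Permutation models: chains of open subgroups, few conjugates above a universal group
-/

namespace Vale.Agent.P323

universe u

variable {G : Type u} [Group G] {F : NormalFilter G}

/-- A tree of intervals gives suprema which are strictly increasing in the lexicographic order. -/
theorem exists_tree_lex {α : Type u} [CompleteLattice α] (good : α → α → Prop)
    (hlt : ∀ a b, good a b → a < b)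
    (hsp : ∀ a b, good a b → ∃ c c', good a c ∧ c < c' ∧ good c' b) {a₀ b₀ : α}
    (h₀ : good a₀ b₀) :
    ∃ Q : (ℕ → Bool) → α, (∀ f g : ℕ → Bool, ∀ n, (∀ m < n, f m = g m) → f n = false →
      g n = true → Q f < Q g) ∧ ∀ f, a₀ ≤ Q f ∧ Q f ≤ b₀ := by
  classical
  let Gd := {p : α × α // good p.1 p.2}
  have hs : ∀ p : Gd, ∃ lr : Gd × Gd, p.1.1 ≤ lr.1.1.1 ∧ lr.1.1.2 < lr.2.1.1 ∧
      lr.2.1.2 ≤ p.1.2 := by
    rintro ⟨⟨a, b⟩, hab⟩
    obtain ⟨c, c', h1, h2, h3⟩ := hsp a b hab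
    exact ⟨(⟨(a, c), h1⟩, ⟨(c', b), h3⟩), le_rfl, h2, le_rfl⟩
  choose lr hlr1 hlr2 hlr3 using hs
  let seq : (ℕ → Bool) → ℕ → Gd := fun f n =>
    Nat.rec (motive := fun _ => Gd) ⟨(a₀, b₀), h₀⟩
      (fun n p => if f n then (lr p).2 else (lr p).1) n
  have hseq : ∀ f n, seq f (n + 1) = if f n then (lr (seq f n)).2 else (lr (seq f n)).1 :=
    fun f n => rfl
  have hA : ∀ f n, (seq f n).1.1 ≤ (seq f (n + 1)).1.1 := by
    intro f n
    rw [hseq]
    split_ifs
    · exact (hlr1 _).trans ((hlt _ _ (lr (seq f n)).1.2).le.trans (hlr2 _).le)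
    · exact hlr1 _
  have hB : ∀ f n, (seq f (n + 1)).1.2 ≤ (seq f n).1.2 := by
    intro f n
    rw [hseq]
    split_ifs
    · exact hlr3 _
    · exact (hlr2 _).le.trans ((hlt _ _ (lr (seq f n)).2.2).le.trans (hlr3 _))
  have hAm : ∀ f, Monotone fun n => (seq f n).1.1 := fun f => monotone_nat_of_le_succ (hA f)
  have hBm : ∀ f, Antitone fun n => (seq f n).1.2 := fun f => antitone_nat_of_succ_le (hB f)
  have hAB : ∀ f m n, (seq f m).1.1 ≤ (seq f n).1.2 := by
    intro f m n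
    calc (seq f m).1.1 ≤ (seq f (max m n)).1.1 := hAm f (le_max_left _ _)
      _ ≤ (seq f (max m n)).1.2 := (hlt _ _ (seq f (max m n)).2).le
      _ ≤ (seq f n).1.2 := hBm f (le_max_right _ _)
  let Q : (ℕ → Bool) → α := fun f => ⨆ n, (seq f n).1.1
  have hQ1 : ∀ f n, (seq f n).1.1 ≤ Q f := fun f n => le_iSup (fun n => (seq f n).1.1) n
  have hQ2 : ∀ f n, Q f ≤ (seq f n).1.2 := fun f n => iSup_le fun m => hAB f m n
  have key : ∀ f g : ℕ → Bool, ∀ n, (∀ m < n, f m = g m) → f n = false → g n = true →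
      Q f < Q g := by
    intro f g n hm hf hg
    have heq : seq f n = seq g n := by
      clear hf hg
      induction n with
      | zero => rfl
      | succ n ih =>
        rw [hseq, hseq, ih (fun m h => hm m (h.trans (Nat.lt_succ_self n))),
          hm n (Nat.lt_succ_self n)]
    have h1 := hQ2 f (n + 1)
    have h2 := hQ1 g (n + 1)
    rw [hseq, hf] at h1
    rw [hseq, hg, ← heq] at h2
    simp only [Bool.false_eq_true, if_false] at h1
    simp only [if_true] at h2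
    exact lt_of_le_of_lt h1 (lt_of_lt_of_le (hlr2 _) h2)
  exact ⟨Q, key, fun f => ⟨hQ1 f 0, hQ2 f 0⟩⟩

/-- lexicographically increasing maps are injective -/
theorem lex_injective {α : Type u} [Preorder α] {Q : (ℕ → Bool) → α}
    (hQ : ∀ f g : ℕ → Bool, ∀ n, (∀ m < n, f m = g m) → f n = false →
      g n = true → Q f < Q g) : Function.Injective Q := by
  classical
  intro f g hfg
  by_contra hne
  have hex : ∃ n, f n ≠ g n := Function.ne_iff.1 hne
  have h1 := Nat.find_spec hex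
  have h2 : ∀ m < Nat.find hex, f m = g m := fun m hm => not_not.1 (Nat.find_min hex hm)
  generalize Nat.find hex = n at h1 h2
  cases hf : f n with
  | false =>
    have hg : g n = true := by
      cases hg : g n with
      | false => exact absurd (hf.trans hg.symm) h1
      | true => rfl
    exact absurd hfg (hQ f g n h2 hf hg).ne
  | true =>
    have hg : g n = false := by
      cases hg : g n with
      | true => exact absurd (hf.trans hg.symm) h1
      | false => rfl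
    exact absurd hfg (hQ g f n (fun m hm => (h2 m hm).symm) hg hf).ne'

/-- lexicographically increasing maps give copies of the rationals -/
theorem lex_rat {α : Type u} [Preorder α] {Q : (ℕ → Bool) → α}
    (hQ : ∀ f g : ℕ → Bool, ∀ n, (∀ m < n, f m = g m) → f n = false →
      g n = true → Q f < Q g) :
    ∃ φ : ℚ → (ℕ → Bool), StrictMono fun r => Q (φ r) := by
  classical
  obtain ⟨e, he⟩ := exists_surjective_nat ℚ
  refine ⟨fun r n => decide (e n < r), ?_⟩
  intro r s hrs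
  obtain ⟨n₀, hn₀⟩ := he r
  have hex : ∃ n, decide (e n < r) ≠ decide (e n < s) := by
    refine ⟨n₀, ?_⟩
    rw [hn₀]
    simp [hrs]
  have h1 := Nat.find_spec hex
  have h2 : ∀ m < Nat.find hex, decide (e m < r) = decide (e m < s) :=
    fun m hm => not_not.1 (Nat.find_min hex hm)
  generalize Nat.find hex = n at h1 h2
  have h3 : ¬ e n < r := by
    intro h
    apply h1
    rw [decide_eq_true h, decide_eq_true (h.trans hrs)]
  have h4 : e n < s := by
    by_contra h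
    apply h1
    rw [decide_eq_false h3, decide_eq_false h]
  exact hQ _ _ n h2 (decide_eq_false h3) (decide_eq_true h4)

/-- **Chains of open subgroups.** -/
theorem tree_univ (hun : Unif F) (hno : ∀ E, F.mem E → ∃ D, F.mem D ∧ ¬ E ≤ D)
    {K : Subgroup G} (hK : F.mem K) :
    ∃ V : Subgroup G, F.mem V ∧ V ≤ K ∧ ∃ Q : (ℕ → Bool) → Subgroup G,
      (∀ f g : ℕ → Bool, ∀ n, (∀ m < n, f m = g m) → f n = false → g n = true → Q f < Q g) ∧
      ∀ f, V ≤ Q f ∧ Q f ≤ K := by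
  obtain ⟨E, hE, hEK, hEu⟩ := hun K hK
  obtain ⟨E', hE', hE'E, hE'u⟩ := hun E hE
  obtain ⟨V, hV, hEV⟩ := hno E hE
  obtain ⟨x, hxK, hx⟩ := hEu (E' ⊓ V) (F.inter hE' hV)
  have hxE : cj x E ≤ E' ⊓ V := cj_le_of_forall hx
  have hDE : cj x E < E := by
    refine lt_of_le_of_ne ((hxE.trans inf_le_left).trans hE'E) ?_
    intro h
    exact hEV (h ▸ hxE.trans inf_le_right)
  have hDu : ∀ W : Subgroup G, F.mem W → ∃ e ∈ E, cj e (cj x E) ≤ W := by
    intro W hW
    obtain ⟨e, he, h⟩ := hE'u W hW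
    exact ⟨e, he, (cj_mono e (hxE.trans inf_le_left)).trans (cj_le_of_forall h)⟩
  obtain ⟨e, he, hex⟩ := hDu (cj x (cj x E)) (mem_of_cj x (mem_of_cj x hE))
  obtain ⟨Q, hQ, hQ2⟩ := exists_tree_lex (GoodI (cj x E) E) (fun a b h => h.lt hDE)
    (fun a b h => h.split2 rfl hDE he hex) (a₀ := cj x E) (b₀ := E)
    ⟨1, by rw [cj_one], by rw [cj_one]⟩
  exact ⟨cj x E, mem_of_cj x hE, hDE.le.trans hEK, Q, hQ,
    fun f => ⟨(hQ2 f).1, (hQ2 f).2.trans hEK⟩⟩

theorem continuum_le_of_inj {β : Type u} {Q : (ℕ → Bool) → β} (hQ : Function.Injective Q) :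
    Cardinal.continuum.{u} ≤ Cardinal.mk β := by
  have h1 : Cardinal.mk (ULift.{u} (ℕ → Bool)) ≤ Cardinal.mk β :=
    Cardinal.mk_le_of_injective (f := fun x => Q x.down)
      (fun x y hxy => ULift.down_injective (hQ hxy))
  refine le_trans (le_of_eq ?_) h1
  simp

/-- Intervals of subgroups with fewer than continuum members, or without copies of the
rationals. -/
theorem least_of_interval (hU : Unif F)
    (h : ∃ K : Subgroup G, F.mem K ∧ ∀ V : Subgroup G, F.mem V →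
      ∃ D : Subgroup G, F.mem D ∧ D ≤ V ∧
        (Cardinal.mk {P : Subgroup G // D ≤ P ∧ P ≤ K} < Cardinal.continuum.{u} ∨
          ¬ ∃ q : ℚ → Subgroup G, StrictMono q ∧ ∀ r, D ≤ q r ∧ q r ≤ K)) :
    ∃ E, F.mem E ∧ ∀ D, F.mem D → E ≤ D := by
  by_contra hcon
  push Not at hcon
  obtain ⟨K, hK, hs⟩ := h
  obtain ⟨V, hV, -, Q, hQ, hVQ⟩ := tree_univ hU hcon hK
  obtain ⟨D, hD, hDV, hs⟩ := hs V hV
  rcases hs with hs | hs
  · apply absurd hs
    rw [not_lt]
    apply continuum_le_of_inj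
      (Q := fun f => (⟨Q f, hDV.trans (hVQ f).1, (hVQ f).2⟩ : {P : Subgroup G // D ≤ P ∧ P ≤ K}))
    intro f g hfg
    exact lex_injective hQ (congrArg Subtype.val hfg)
  · apply hs
    obtain ⟨φ, hφ⟩ := lex_rat hQ
    exact ⟨fun r => Q (φ r), hφ, fun r => ⟨hDV.trans (hVQ _).1, (hVQ _).2⟩⟩

/-- Fewer than continuum many conjugates above a small group. -/
theorem least_of_fewConj (hPP : PP F) (hU : Unif F)
    (h : ∃ K : Subgroup G, F.mem K ∧ ∀ V : Subgroup G, F.mem V →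
      ∃ D : Subgroup G, F.mem D ∧ D ≤ V ∧
        Cardinal.mk {L : Subgroup G // D ≤ L ∧ ∃ h ∈ K, L = cj h D} < Cardinal.continuum.{u}) :
    ∃ E, F.mem E ∧ ∀ D, F.mem D → E ≤ D := by
  by_contra hcon
  push Not at hcon
  obtain ⟨K₀, hK₀, hs⟩ := h
  obtain ⟨E, hE, -, hEu⟩ := hU K₀ hK₀
  obtain ⟨D, hD, hDE, hs⟩ := hs E hE
  have huniv : ∀ V : Subgroup G, F.mem V → ∃ h ∈ K₀, ∀ x ∈ D, h * x * h⁻¹ ∈ V := by
    intro V hV
    obtain ⟨h, hh, hx⟩ := hEu V hV
    exact ⟨h, hh, fun x hx' => hx x (hDE hx')⟩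
  obtain ⟨K₁, hK₁, -, hcode⟩ := coded_at hPP hK₀ hD huniv
  obtain ⟨V, hV, -, Q, hQ, hVQ⟩ := tree_univ hU hcon hK₁
  obtain ⟨h₀, hh₀, hx₀⟩ := huniv V hV
  have hDV : cj h₀ D ≤ V := cj_le_of_forall hx₀
  choose p hp hpQ using fun f => hcode (Q f) (F.up hV (hVQ f).1) (hVQ f).2
  have hQe : ∀ f, Q f = K₁ ⊓ cj (p f) D := by
    intro f
    ext x
    rw [hpQ f x, Subgroup.mem_inf, mem_cj]
  have hle : ∀ f, D ≤ cj (h₀⁻¹ * p f) D := by
    intro f
    rw [← cj_le_iff h₀, ← cj_mul, mul_inv_cancel_left]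
    have := hDV.trans (hVQ f).1
    rw [hQe f] at this
    exact this.trans inf_le_right
  apply absurd hs
  rw [not_lt]
  apply continuum_le_of_inj
    (Q := fun f => (⟨cj (h₀⁻¹ * p f) D, hle f, _, K₀.mul_mem (K₀.inv_mem hh₀) (hp f), rfl⟩ :
      {L : Subgroup G // D ≤ L ∧ ∃ h ∈ K₀, L = cj h D}))
  intro f g hfg
  apply lex_injective hQ
  have h1 : cj (h₀⁻¹ * p f) D = cj (h₀⁻¹ * p g) D := congrArg Subtype.val hfg
  rw [cj_mul, cj_mul] at h1
  have h2 : cj (p f) D = cj (p g) D :=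
    le_antisymm ((cj_le_iff h₀⁻¹).mp h1.le) ((cj_le_iff h₀⁻¹).mp h1.ge)
  rw [hQe f, hQe g, h2]

/-- Small definable closures in models with finite supports. -/
theorem fewConj_supp {G A : Type u} [Group G] [MulAction G A] {I : SuppIdeal G A}
    (hfin : ∀ e, I.mem e → e.Finite) {e₀ : Set A} (he₀ : I.mem e₀)
    (hsm : ∀ e, I.mem e → e₀ ⊆ e →
      Cardinal.mk {a : A // (∃ g : G, (∀ b ∈ e₀, g • b = b) ∧ ∃ b ∈ e, g • b = a) ∧
        ∀ k : G, (∀ b ∈ e, k • b = b) → k • a = a} < Cardinal.continuum.{u}) :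
    ∃ K : Subgroup G, (suppFilter I).mem K ∧ ∀ V : Subgroup G, (suppFilter I).mem V →
      ∃ D : Subgroup G, (suppFilter I).mem D ∧ D ≤ V ∧
        Cardinal.mk {L : Subgroup G // D ≤ L ∧ ∃ h ∈ K, L = cj h D} < Cardinal.continuum.{u} := by
  refine ⟨fx e₀, ⟨e₀, he₀, fun g hg => hg⟩, ?_⟩
  rintro V ⟨e₁, he₁, hV⟩
  have he : I.mem (e₀ ∪ e₁) := I.union he₀ he₁
  refine ⟨fx (e₀ ∪ e₁), ⟨_, he, fun g hg => hg⟩,
    fun g hg => hV g fun a ha => hg a (Or.inr ha), ?_⟩
  generalize hee : e₀ ∪ e₁ = e at he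
  have h0e : e₀ ⊆ e := hee ▸ Set.subset_union_left
  have hS := hsm e he h0e
  set S := {a : A // (∃ g : G, (∀ b ∈ e₀, g • b = b) ∧ ∃ b ∈ e, g • b = a) ∧
        ∀ k : G, (∀ b ∈ e, k • b = b) → k • a = a} with hSdef
  have hmem : ∀ L : {L : Subgroup G // fx e ≤ L ∧ ∃ h ∈ fx e₀, L = cj h (fx e)},
      ∃ h : G, h ∈ (fx e₀ : Subgroup G) ∧ L.1 = cj h (fx e) := fun L => by
    obtain ⟨h, hh, hL⟩ := L.2.2
    exact ⟨h, hh, hL⟩
  choose hc hhc hLc using hmem
  have hfixed : ∀ (L : {L : Subgroup G // fx e ≤ L ∧ ∃ h ∈ fx e₀, L = cj h (fx e)}) (a : e),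
      (∃ g : G, (∀ b ∈ e₀, g • b = b) ∧ ∃ b ∈ e, g • b = hc L • (a : A)) ∧
        ∀ k : G, (∀ b ∈ e, k • b = b) → k • (hc L • (a : A)) = hc L • (a : A) := by
    intro L a
    refine ⟨⟨hc L, hhc L, a, a.2, rfl⟩, ?_⟩
    intro k hk
    have h1 : k ∈ L.1 := L.2.1 hk
    rw [hLc L, mem_cj] at h1
    have h2 := h1 a a.2
    rw [mul_smul, mul_smul, inv_smul_eq_iff] at h2
    exact h2
  let φ : {L : Subgroup G // fx e ≤ L ∧ ∃ h ∈ fx e₀, L = cj h (fx e)} → (e → S) :=
    fun L a => ⟨hc L • (a : A), hfixed L a⟩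
  have hφ : Function.Injective φ := by
    intro L L' hLL
    apply Subtype.ext
    rw [hLc L, hLc L']
    have h1 : ∀ a ∈ e, hc L • a = hc L' • a := fun a ha =>
      congrArg Subtype.val (congrFun hLL ⟨a, ha⟩)
    have key : ∀ (h h' : G), (∀ a ∈ e, h • a = h' • a) → cj h (fx e) ≤ cj h' (fx e) := by
      intro h h' hh x hx
      rw [mem_cj] at hx ⊢
      intro a ha
      have h2 := hx a ha
      rw [mul_smul, mul_smul, inv_smul_eq_iff] at h2 ⊢
      rw [← hh a ha]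
      exact h2
    exact le_antisymm (key _ _ h1) (key _ _ fun a ha => (h1 a ha).symm)
  refine (Cardinal.mk_le_of_injective hφ).trans_lt ?_
  have hef : Finite e := (hfin e he).to_subtype
  have : Fintype e := Fintype.ofFinite e
  rcases lt_or_ge (Cardinal.mk S) Cardinal.aleph0 with hlt | hge
  · have : Finite S := Cardinal.lt_aleph0_iff_finite.mp hlt
    exact (Cardinal.mk_lt_aleph0_iff.mpr inferInstance).trans Cardinal.aleph0_lt_continuum
  · have h2 : Cardinal.mk (e → S) = Cardinal.mk S ^ (Cardinal.mk e) := (Cardinal.power_def _ _).symm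
    have h3 : Cardinal.mk e = ((Fintype.card e : ℕ) : Cardinal.{u}) := Cardinal.mk_fintype _
    rw [h2, h3, Cardinal.power_natCast]
    exact (Cardinal.power_nat_le hge).trans_lt hS

end Vale.Agent.P323
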